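import Vale.Agent.P183.Defs

/-!
# Finite chains are representable
-/

namespace Vale.Agent.P183

/-- the unary operation `g b c`: everything below `b` goes to `c` (if `c < b`) -/
def chainOp {n : ℕ} (p : Fin n × Fin n) (x : Fin n) : Fin n :=
  if p.2 < p.1 ∧ x < p.1 then p.2 else x

/-- the algebra on `Fin (n + 1)` whose congruences form a chain -/
def chainAlg (n : ℕ) : FinAlg where
  carrier := Fin (n + 1)
  nonempty := ⟨0⟩
  finite := inferInstance
  ops := Fin (n + 1) × Fin (n + 1)
  finite_ops := inferInstance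
  arity := fun _ => 1
  op := fun o x => chainOp o (x 0)

/-- the congruence collapsing the initial segment up to `k` -/
def chainTh {n : ℕ} (k : Fin (n + 1)) : Setoid (Fin (n + 1)) where
  r x y := x = y ∨ (x ≤ k ∧ y ≤ k)
  iseqv := ⟨fun _ => Or.inl rfl,
    fun h => h.elim (fun e => Or.inl e.symm) (fun e => Or.inr ⟨e.2, e.1⟩),
    fun {x y z} h h' => by
      rcases h with rfl | h
      · exact h'
      · rcases h' with rfl | h'
        · exact Or.inr h
        · exact Or.inr ⟨h.1, h'.2⟩⟩

lemma chainTh_isCong {n : ℕ} (k : Fin (n + 1)) : (chainAlg n).IsCong (chainTh k) := by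
  intro o x y h
  have h0 := h (0 : Fin 1)
  show chainTh k (chainOp o (x (0 : Fin 1))) (chainOp o (y (0 : Fin 1)))
  generalize x (0 : Fin 1) = x0 at h0 ⊢
  generalize y (0 : Fin 1) = y0 at h0 ⊢
  change Fin (n + 1) at x0 y0
  change Fin (n + 1) × Fin (n + 1) at o
  change x0 = y0 ∨ (x0 ≤ k ∧ y0 ≤ k) at h0
  rcases h0 with e | ⟨hx, hy⟩
  · rw [e]
  · unfold chainOp
    by_cases hc : o.2 < o.1
    · by_cases h1 : x0 < o.1 <;> by_cases h2 : y0 < o.1
      · simp [hc, h1, h2]
      · simp only [hc, h1, h2, and_true, and_false, if_true, if_false]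
        refine Or.inr ⟨?_, hy⟩
        exact le_trans (le_of_lt hc) (le_trans (not_lt.mp h2) hy)
      · simp only [hc, h1, h2, and_true, and_false, if_true, if_false]
        refine Or.inr ⟨hx, ?_⟩
        exact le_trans (le_of_lt hc) (le_trans (not_lt.mp h1) hx)
      · simp only [hc, h1, h2, and_false, if_false]
        exact Or.inr ⟨hx, hy⟩
    · simp only [hc, false_and, if_false]
      exact Or.inr ⟨hx, hy⟩

def chainMap {n : ℕ} (k : Fin (n + 1)) : (chainAlg n).Con := ⟨chainTh k, chainTh_isCong k⟩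

lemma chainMap_le_iff {n : ℕ} (k l : Fin (n + 1)) : chainMap k ≤ chainMap l ↔ k ≤ l := by
  constructor
  · intro h
    have h1 : chainTh l 0 k := h (show chainTh k 0 k from Or.inr ⟨Fin.zero_le _, le_refl _⟩)
    rcases h1 with e | e
    · rw [← e]; exact Fin.zero_le _
    · exact e.2
  · intro h x y hxy
    rcases hxy with e | e
    · exact Or.inl e
    · exact Or.inr ⟨e.1.trans h, e.2.trans h⟩

lemma chain_down {n : ℕ} (r : (chainAlg n).Con) {a b : Fin (n + 1)} (hab : a < b)
    (h : r.1 a b) (c : Fin (n + 1)) (hc : c < b) : r.1 c b := by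
  have := r.2 (b, c) (fun _ => a) (fun _ => b) (fun _ => h)
  have e1 : (chainAlg n).op (b, c) (fun _ => a) = c := by
    show chainOp (b, c) a = c
    simp [chainOp, hc, hab]
  have e2 : (chainAlg n).op (b, c) (fun _ => b) = b := by
    show chainOp (b, c) b = b
    simp [chainOp]
  rwa [e1, e2] at this

lemma chainMap_surj {n : ℕ} : Function.Surjective (chainMap (n := n)) := by
  classical
  intro r
  let R : Setoid (Fin (n + 1)) := r.1
  -- the set of elements related to a smaller one
  let S : Finset (Fin (n + 1)) := Finset.univ.filter (fun b => b = 0 ∨ ∃ a, a < b ∧ R a b)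
  have hS : S.Nonempty := ⟨0, by simp [S]⟩
  let m := S.max' hS
  have hm : m ∈ S := S.max'_mem hS
  have hmax : ∀ b : Fin (n + 1), (∃ a, a < b ∧ R a b) → b ≤ m := by
    intro b hb
    exact S.le_max' b (Finset.mem_filter.mpr ⟨Finset.mem_univ _, Or.inr hb⟩)
  have hlow : ∀ c : Fin (n + 1), c ≤ m → R c m := by
    intro c hc
    rcases eq_or_lt_of_le hc with e | hlt
    · rw [e]
    · have hm' : m = 0 ∨ ∃ a, a < m ∧ R a m := (Finset.mem_filter.mp hm).2
      rcases hm' with e | ⟨a, ha, har⟩
      · rw [e] at hlt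
        exact absurd hlt (Fin.not_lt_zero _)
      · exact chain_down r ha har c hlt
  refine ⟨m, ?_⟩
  apply Subtype.ext
  show chainTh m = R
  ext x y
  constructor
  · rintro (e | ⟨hx, hy⟩)
    · rw [e]
    · exact R.trans' (hlow x hx) (R.symm' (hlow y hy))
  · intro h
    rcases lt_trichotomy x y with hlt | e | hgt
    · have hy : y ≤ m := hmax y ⟨x, hlt, h⟩
      exact Or.inr ⟨(le_of_lt hlt).trans hy, hy⟩
    · exact Or.inl e
    · have hx : x ≤ m := hmax x ⟨y, hgt, R.symm' h⟩
      exact Or.inr ⟨hx, (le_of_lt hgt).trans hx⟩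

/-- every finite nonempty chain is the congruence lattice of a finite algebra -/
theorem chain_representable (n : ℕ) : Representable (Fin (n + 1)) :=
  ⟨chainAlg n, ⟨(OrderIso.ofSurjective (OrderEmbedding.ofMapLEIff chainMap chainMap_le_iff)
    chainMap_surj).symm⟩⟩

end Vale.Agent.P183
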