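import Vale.Agent.P183.Core

namespace Vale.Agent.P183

set_option linter.unusedSectionVars false

open Classical in
/-- indicator of a gadget element -/
noncomputable def ind {T : Type} (t : T) : T → Bool := fun s => decide (s = t)

variable {T : Type} (idx : T → Fin 3)

lemma tst_ind_self (t : T) (k : Fin 4) : tst idx (idx t) (ind t) (Sum.inr (t, k)) = idx t + 2 := by
  simp [tst, sig, ind]

lemma tst_false_self (t : T) (k : Fin 4) :
    tst idx (idx t) (fun _ => false) (Sum.inr (t, k)) = if k = 3 then idx t else idx t + 1 := by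
  simp [tst, sig]

lemma tst_true_self (t : T) (k : Fin 4) :
    tst idx (idx t) (fun _ => true) (Sum.inr (t, k)) = idx t + 2 := by
  simp [tst, sig]

lemma tst_ind_other (j : Fin 3) (t t' : T) (h : t' ≠ t) (k : Fin 4) :
    tst idx j (ind t) (Sum.inr (t', k)) = tst idx j (fun _ => false) (Sum.inr (t', k)) := by
  simp [tst, sig, ind, h]

lemma sep {y y' : Pt T} (h1 : lab idx y = lab idx y')
    (h2 : ∀ j χ, tst idx j χ y = tst idx j χ y') : y = y' := by
  have aux : ∀ (a : Fin 3) (k : Fin 4), a + 2 ≠ (if k = 3 then a else a + 1) := by decide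
  rcases y with l | ⟨t, k⟩ <;> rcases y' with l' | ⟨t', k'⟩
  · exact congrArg Sum.inl h1
  · exfalso
    have a1 := h2 (idx t') (fun _ => true)
    have a2 := h2 (idx t') (fun _ => false)
    rw [tst_true_self] at a1
    rw [tst_false_self] at a2
    simp only [tst] at a1 a2
    exact aux _ _ (a1.symm.trans a2)
  · exfalso
    have a1 := h2 (idx t) (fun _ => true)
    have a2 := h2 (idx t) (fun _ => false)
    rw [tst_true_self] at a1
    rw [tst_false_self] at a2
    simp only [tst] at a1 a2
    exact aux _ _ (a1.trans a2.symm)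
  · by_cases htt : t' = t
    · subst htt
      have a2 := h2 (idx t') (fun _ => false)
      rw [tst_false_self, tst_false_self] at a2
      simp only [lab] at h1
      have : ∀ (a : Fin 3) (k k' : Fin 4), a + off k = a + off k' →
          (if k = 3 then a else a + 1) = (if k' = 3 then a else a + 1) → k = k' := by decide
      rw [this _ _ _ h1 a2]
    · exfalso
      have a1 := h2 (idx t) (ind t)
      have a2 := h2 (idx t) (fun _ => false)
      rw [tst_ind_self, tst_ind_other idx _ _ _ htt] at a1
      rw [tst_false_self] at a2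
      exact aux _ _ (a1.trans a2.symm)

section

variable (G : Set (T → T)) (Θ : Setoid (Pt T)) (hΘ : IsCongA idx G Θ)
include hΘ

lemma rootE {y y' : Pt T} (h : Θ y y') : Θ (Sum.inl (lab idx y)) (Sum.inl (lab idx y')) :=
  hΘ.E none y y' h

lemma rootS (j : Fin 3) (χ : T → Bool) {y y' : Pt T} (h : Θ y y') :
    Θ (Sum.inl (tst idx j χ y)) (Sum.inl (tst idx j χ y')) :=
  hΘ.S j χ y y' h

lemma edge (w : Option (T × Bool)) {l l' : Fin 3} (h : Θ (Sum.inl l) (Sum.inl l')) :
    Θ (tri idx w l) (tri idx w l') :=
  hΘ.E w _ _ h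

lemma case_bot (H : ∀ l l' : Fin 3, Θ (Sum.inl l) (Sum.inl l') → l = l') : Θ = ⊥ := by
  apply le_antisymm _ bot_le
  intro y y' h
  exact sep idx (H _ _ (rootE idx G Θ hΘ h)) (fun j χ => H _ _ (rootS idx G Θ hΘ j χ h))

lemma edgeB (t : T) {l l' : Fin 3} (h : Θ (Sum.inl l) (Sum.inl l')) :
    Θ (Sum.inr (t, kB (l - idx t))) (Sum.inr (t, kB (l' - idx t))) :=
  edge idx G Θ hΘ (some (t, false)) h

lemma case_top (H : ∀ l l' : Fin 3, Θ (Sum.inl l) (Sum.inl l')) : Θ = ⊤ := by
  apply le_antisymm le_top
  have key : ∀ y : Pt T, Θ y (Sum.inl 0) := by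
    intro y
    rcases y with l | ⟨t, k⟩
    · exact H _ _
    · -- the point (t,1) is related to the root
      have e1 : Θ (Sum.inr (t, 1)) (Sum.inl (idx t + 2)) := by
        have := edge idx G Θ hΘ (some (t, true)) (H (idx t + 1) (idx t + 2))
        have a1 : idx t + 1 - idx t = 1 := by abel
        have a2 : idx t + 2 - idx t = 2 := by abel
        simpa [tri, a1, a2, kD] using this
      have e3 : Θ (Sum.inr (t, 3)) (Sum.inl (idx t + 2)) := by
        have := edge idx G Θ hΘ (some (t, true)) (H (idx t) (idx t + 2))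
        have a2 : idx t + 2 - idx t = 2 := by abel
        simpa [tri, a2, kD] using this
      have eB : ∀ r : Fin 3, Θ (Sum.inr (t, kB r)) (Sum.inr (t, 1)) := by
        intro r
        have := edgeB idx G Θ hΘ t (H (idx t + r) (idx t + 1))
        have a1 : idx t + 1 - idx t = 1 := by abel
        have a2 : idx t + r - idx t = r := by abel
        simpa [a1, a2, kB] using this
      have hk : k = 3 ∨ ∃ r, k = kB r := by revert k; decide
      rcases hk with rfl | ⟨r, rfl⟩
      · exact Θ.trans' e3 (H _ _)
      · exact Θ.trans' (eB r) (Θ.trans' e1 (H _ _))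
  intro y y' _
  exact Θ.trans' (key y) (Θ.symm' (key y'))

end

end Vale.Agent.P183
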