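import Mathlib

namespace Vale.Agent.P183

set_option linter.unusedSectionVars false

/-- points of the big algebra: three root points and four points for each gadget element -/
abbrev Pt (T : Type) := Fin 3 ⊕ T × Fin 4

def off : Fin 4 → Fin 3 := ![0, 1, 2, 0]
def kB : Fin 3 → Fin 4 := ![0, 1, 2]
def kD : Fin 3 → Fin 4 := ![3, 1, 1]

variable {T : Type} (idx : T → Fin 3)

def lab : Pt T → Fin 3
  | Sum.inl l => l
  | Sum.inr (t, k) => idx t + off k

def tri : Option (T × Bool) → Fin 3 → Pt T
  | none, l => Sum.inl l
  | some (t, false), l => Sum.inr (t, kB (l - idx t))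
  | some (t, true), l => if l - idx t = 2 then Sum.inl l else Sum.inr (t, kD (l - idx t))

def sig (j : Fin 3) (χ : T → Bool) (t : T) (k : Fin 4) : Fin 3 :=
  if idx t = j then (if χ t then j + 2 else if k = 3 then j else j + 1) else idx t + off k

def tst (j : Fin 3) (χ : T → Bool) : Pt T → Fin 3
  | Sum.inl l => l
  | Sum.inr (t, k) => sig idx j χ t k

def opE (w : Option (T × Bool)) (y : Pt T) : Pt T := tri idx w (lab idx y)
def opS (j : Fin 3) (χ : T → Bool) (y : Pt T) : Pt T := Sum.inl (tst idx j χ y)
def opG (γ : T → T) : Pt T → Pt T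
  | Sum.inl l => Sum.inl l
  | Sum.inr (t, k) => Sum.inr (γ t, k)

structure IsCongA (G : Set (T → T)) (Θ : Setoid (Pt T)) : Prop where
  E : ∀ w y y', Θ y y' → Θ (opE idx w y) (opE idx w y')
  S : ∀ j χ y y', Θ y y' → Θ (opS idx j χ y) (opS idx j χ y')
  G : ∀ γ ∈ G, ∀ y y', Θ y y' → Θ (opG γ y) (opG γ y')

def free (i : Fin 3) : Pt T → Option T
  | Sum.inl _ => none
  | Sum.inr (t, k) => if idx t = i ∧ k = 0 then some t else none

def bstar (i : Fin 3) : Setoid (Pt T) where
  r y y' := (lab idx y = i ↔ lab idx y' = i) ∧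
    ∀ j χ, (tst idx j χ y = i ↔ tst idx j χ y' = i)
  iseqv := ⟨fun _ => ⟨Iff.rfl, fun _ _ => Iff.rfl⟩,
    fun h => ⟨h.1.symm, fun j χ => (h.2 j χ).symm⟩,
    fun h h' => ⟨h.1.trans h'.1, fun j χ => (h.2 j χ).trans (h'.2 j χ)⟩⟩

def Th (i : Fin 3) (ψ : Setoid T) : Setoid (Pt T) where
  r y y' := bstar idx i y y' ∧
    (free idx i y).map (Quotient.mk ψ) = (free idx i y').map (Quotient.mk ψ)
  iseqv := ⟨fun _ => ⟨(bstar idx i).refl' _, rfl⟩, fun h => ⟨(bstar idx i).symm' h.1, h.2.symm⟩,
    fun h h' => ⟨(bstar idx i).trans' h.1 h'.1, h.2.trans h'.2⟩⟩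

lemma off_kB (r : Fin 3) : off (kB r) = r := by revert r; decide

lemma lab_tri (w : Option (T × Bool)) (l : Fin 3) : lab idx (tri idx w l) = l := by
  rcases w with _ | ⟨t, b⟩
  · rfl
  · cases b
    · simp only [tri, lab, off_kB]; abel
    · simp only [tri]
      split_ifs with h
      · rfl
      · simp only [lab]
        have : ∀ r : Fin 3, r ≠ 2 → off (kD r) = r := by decide
        rw [this _ h]; abel

/-- a test composed with a triangle is the identity or a constant -/
lemma tst_tri (j : Fin 3) (χ : T → Bool) (w : Option (T × Bool)) :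
    (∀ l, tst idx j χ (tri idx w l) = l) ∨ (∀ l l', tst idx j χ (tri idx w l) = tst idx j χ (tri idx w l')) := by
  rcases w with _ | ⟨t, b⟩
  · left; intro l; rfl
  · by_cases hj : idx t = j
    · cases b
      · right
        intro l l'
        have : ∀ r : Fin 3, kB r ≠ 3 := by decide
        simp [tri, tst, sig, hj, this]
      · by_cases hχ : χ t
        · right
          have key : ∀ l, tst idx j χ (tri idx (some (t, true)) l) = j + 2 := by
            intro l
            simp only [tri]
            split_ifs with h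
            · simp only [tst]
              rw [hj] at h
              rw [← h]; abel
            · simp [tst, sig, hj, hχ]
          intro l l'
          rw [key, key]
        · left
          intro l
          simp only [tri]
          split_ifs with h
          · rfl
          · simp only [tst, sig, hj, hχ, if_true]
            rw [hj] at h
            have : ∀ j l : Fin 3, l - j ≠ 2 →
                (if false = true then j + 2 else if kD (l - j) = 3 then j else j + 1) = l := by
              decide
            simpa using this j l h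
    · left
      intro l
      have h1 := lab_tri idx (some (t, b)) l
      cases b
      · simp only [tri, lab] at h1
        simp only [tri, tst, sig, hj, if_false]
        exact h1
      · simp only [tri] at h1 ⊢
        split_ifs at h1 ⊢ with h
        · rfl
        · simp only [lab] at h1
          simp only [tst, sig, hj, if_false]
          exact h1

lemma free_tri (i : Fin 3) (w : Option (T × Bool)) (l l' : Fin 3) (h : l = i ↔ l' = i) :
    free idx i (tri idx w l) = free idx i (tri idx w l') := by
  rcases w with _ | ⟨t, b⟩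
  · rfl
  · cases b
    · simp only [tri, free]
      by_cases hi : idx t = i
      · have : ∀ i l : Fin 3, kB (l - i) = 0 ↔ l = i := by decide
        simp only [hi, true_and, this, h]
      · simp [hi]
    · have : ∀ r : Fin 3, kD r ≠ 0 := by decide
      simp only [tri]
      split_ifs <;> simp [free, this]

lemma lab_opG (γ : T → T) (hγ : ∀ t, idx (γ t) = idx t) (y : Pt T) :
    lab idx (opG γ y) = lab idx y := by
  rcases y with l | ⟨t, k⟩
  · rfl
  · simp [opG, lab, hγ]

lemma tst_opG (γ : T → T) (hγ : ∀ t, idx (γ t) = idx t) (j : Fin 3) (χ : T → Bool) (y : Pt T) :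
    tst idx j χ (opG γ y) = tst idx j (χ ∘ γ) y := by
  rcases y with l | ⟨t, k⟩
  · rfl
  · simp [opG, tst, sig, hγ]

lemma free_opG (γ : T → T) (hγ : ∀ t, idx (γ t) = idx t) (i : Fin 3) (y : Pt T) :
    free idx i (opG γ y) = (free idx i y).map γ := by
  rcases y with l | ⟨t, k⟩
  · rfl
  · simp only [opG, free, hγ]
    split_ifs <;> rfl

lemma Th_isCong (G : Set (T → T)) (hG : ∀ γ ∈ G, ∀ t, idx (γ t) = idx t) (i : Fin 3)
    (ψ : Setoid T) (hψ : ∀ γ ∈ G, ∀ t t', ψ t t' → ψ (γ t) (γ t')) :
    IsCongA idx G (Th idx i ψ) := by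
  refine ⟨?_, ?_, ?_⟩
  · intro w y y' h
    refine ⟨⟨?_, ?_⟩, ?_⟩
    · simp only [opE, lab_tri]; exact h.1.1
    · intro j χ
      simp only [opE]
      rcases tst_tri idx j χ w with hid | hc
      · rw [hid, hid]; exact h.1.1
      · rw [hc (lab idx y) (lab idx y')]
    · simp only [opE]
      rw [free_tri idx i w _ _ h.1.1]
  · intro j χ y y' h
    refine ⟨⟨?_, ?_⟩, ?_⟩
    · exact h.1.2 j χ
    · intro j' χ'
      exact h.1.2 j χ
    · rfl
  · intro γ hγ y y' h
    have hi := hG γ hγ
    refine ⟨⟨?_, ?_⟩, ?_⟩
    · rw [lab_opG idx γ hi, lab_opG idx γ hi]; exact h.1.1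
    · intro j χ
      rw [tst_opG idx γ hi, tst_opG idx γ hi]; exact h.1.2 j _
    · rw [free_opG idx γ hi, free_opG idx γ hi]
      have h2 := h.2
      rcases hy : free idx i y with _ | t <;> rcases hy' : free idx i y' with _ | t' <;>
        rw [hy, hy'] at h2 <;> simp only [Option.map_none, Option.map_some] at h2 ⊢
      · exact absurd h2 (by simp)
      · exact absurd h2 (by simp)
      · have h3 : ψ t t' := Quotient.exact (Option.some.inj h2)
        exact congrArg some (Quotient.sound (hψ γ hγ t t' h3))

end Vale.Agent.P183
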