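import Mathlib

namespace Vale.Agent.P183

universe u

/-- A finite algebra: a nonempty finite carrier with a finite family of total operations,
each of a finite arity (arity `0` and the empty family are allowed). -/
structure FinAlg where
  carrier : Type
  nonempty : Nonempty carrier
  finite : Finite carrier
  ops : Type
  finite_ops : Finite ops
  arity : ops → ℕ
  op : (o : ops) → (Fin (arity o) → carrier) → carrier

/-- An equivalence relation on the carrier is a congruence if it is compatible with
every operation. -/
def FinAlg.IsCong (A : FinAlg) (r : Setoid A.carrier) : Prop :=
  ∀ (o : A.ops) (x y : Fin (A.arity o) → A.carrier),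
    (∀ k, r (x k) (y k)) → r (A.op o x) (A.op o y)

/-- The set of all congruences of `A`, ordered by inclusion. -/
def FinAlg.Con (A : FinAlg) : Type := {r : Setoid A.carrier // A.IsCong r}

instance (A : FinAlg) : PartialOrder A.Con := Subtype.partialOrder _

/-- An ordered set `L` is representable if it is order-isomorphic to the whole congruence
lattice of some finite algebra. -/
def Representable (L : Type u) [PartialOrder L] : Prop :=
  ∃ A : FinAlg, Nonempty (A.Con ≃o L)

end Vale.Agent.P183
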