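import Vale.Agent.P183.Theta

namespace Vale.Agent.P183

set_option linter.unusedSectionVars false

variable {T : Type} (idx : T → Fin 3) (G : Set (T → T))

/-- compatible equivalence relations on `T` that are trivial outside the fibre over `i` -/
def SS (i : Fin 3) : Type :=
  {ψ : Setoid T // (∀ γ ∈ G, ∀ t t', ψ t t' → ψ (γ t) (γ t')) ∧ ψ ≤ supp idx i}

instance (i : Fin 3) : PartialOrder (SS idx G i) := Subtype.partialOrder _

def ConA : Type := {Θ : Setoid (Pt T) // IsCongA idx G Θ}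

instance : PartialOrder (ConA idx G) := Subtype.partialOrder _

lemma isCong_bot : IsCongA idx G (⊥ : Setoid (Pt T)) :=
  ⟨fun w y y' h => by
      have : y = y' := h
      rw [this],
    fun j χ y y' h => by
      have : y = y' := h
      rw [this],
    fun γ _ y y' h => by
      have : y = y' := h
      rw [this]⟩

lemma isCong_top : IsCongA idx G (⊤ : Setoid (Pt T)) :=
  ⟨fun _ _ _ _ => trivial, fun _ _ _ _ _ => trivial, fun _ _ _ _ _ => trivial⟩

lemma Th_root (i : Fin 3) (ψ : Setoid T) (l l' : Fin 3) :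
    Th idx i ψ (Sum.inl l) (Sum.inl l') ↔ (l = i ↔ l' = i) :=
  ⟨fun h => h.1.1, fun h => ⟨⟨h, fun _ _ => h⟩, rfl⟩⟩

lemma bstar_free {i : Fin 3} {t t' : T} (ht : idx t = i) (ht' : idx t' = i) :
    bstar idx i (Sum.inr (t, 0)) (Sum.inr (t', 0)) := by
  refine ⟨?_, ?_⟩
  · rw [lab_inr, lab_inr, ht, ht']
  · intro j χ
    rw [tst_inr, tst_inr, ht, ht']
    have key : ∀ (i j : Fin 3) (b b' : Bool),
        ((if i = j then (if b = true then j + 2 else if (0 : Fin 4) = 3 then j else j + 1)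
          else i + off 0) = i ↔
        (if i = j then (if b' = true then j + 2 else if (0 : Fin 4) = 3 then j else j + 1)
          else i + off 0) = i) := by decide
    exact key i j (χ t) (χ t')

lemma Th_mono (i : Fin 3) {ψ φ : Setoid T} (h : ψ ≤ φ) : Th idx i ψ ≤ Th idx i φ := by
  intro y y' hy
  refine ⟨hy.1, ?_⟩
  have h2 := hy.2
  rcases e1 : free idx i y with _ | t <;> rcases e2 : free idx i y' with _ | t' <;>
    rw [e1, e2] at h2
  · simp at h2
  · simp at h2
  · simp only [Option.map_some] at h2 ⊢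
    exact congrArg some (Quotient.sound (h (Quotient.exact (Option.some.inj h2))))

lemma Th_le_iff (i : Fin 3) {ψ φ : Setoid T} (hψ : ψ ≤ supp idx i) :
    Th idx i ψ ≤ Th idx i φ ↔ ψ ≤ φ := by
  refine ⟨fun h => ?_, Th_mono idx i⟩
  intro t t' htt
  rcases hψ htt with rfl | ⟨h1, h2⟩
  · exact φ.refl' _
  · have hin : Th idx i ψ (Sum.inr (t, 0)) (Sum.inr (t', 0)) := by
      refine ⟨bstar_free idx h1 h2, ?_⟩
      simp only [free, h1, h2, and_self, if_true, Option.map_some]
      exact congrArg some (Quotient.sound htt)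
    have h3 := (h hin).2
    simp only [free, h1, h2, and_self, if_true, Option.map_some] at h3
    exact Quotient.exact (Option.some.inj h3)

lemma Th_le_index {i j : Fin 3} {ψ φ : Setoid T} (h : Th idx i ψ ≤ Th idx j φ) : i = j := by
  have h1 : Th idx i ψ (Sum.inl (i + 1)) (Sum.inl (i + 2)) := by
    rw [Th_root]
    have : ∀ i : Fin 3, (i + 1 = i ↔ i + 2 = i) := by decide
    exact this i
  have h2 := (Th_root idx j φ _ _).mp (h h1)
  have key : ∀ i j : Fin 3, (i + 1 = j ↔ i + 2 = j) → i = j := by decide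
  exact key i j h2

lemma Th_not_le_bot (i : Fin 3) (ψ : Setoid T) : ¬ Th idx i ψ ≤ ⊥ := by
  intro h
  have h1 : Th idx i ψ (Sum.inl (i + 1)) (Sum.inl (i + 2)) := by
    rw [Th_root]
    have : ∀ i : Fin 3, (i + 1 = i ↔ i + 2 = i) := by decide
    exact this i
  have h2 : (Sum.inl (i + 1) : Pt T) = Sum.inl (i + 2) := h h1
  have h3 := Sum.inl.inj h2
  have : ∀ i : Fin 3, i + 1 ≠ i + 2 := by decide
  exact this i h3

lemma top_not_le_Th (i : Fin 3) (ψ : Setoid T) : ¬ (⊤ : Setoid (Pt T)) ≤ Th idx i ψ := by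
  intro h
  have h1 : Th idx i ψ (Sum.inl i) (Sum.inl (i + 1)) := h trivial
  rw [Th_root] at h1
  have : ∀ i : Fin 3, ¬ (i = i ↔ i + 1 = i) := by decide
  exact this i h1

lemma top_not_le_bot : ¬ (⊤ : Setoid (Pt T)) ≤ ⊥ := by
  intro h
  have h2 : (Sum.inl 0 : Pt T) = Sum.inl 1 := h trivial
  exact absurd (Sum.inl.inj h2) (by decide)

lemma fin3_setoid (ρ : Setoid (Fin 3)) :
    (∀ l l', ρ l l' → l = l') ∨ (∀ l l', ρ l l') ∨ ∃ i, ∀ l l', (ρ l l' ↔ (l = i ↔ l' = i)) := by
  have r0 := ρ.refl' 0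
  have r1 := ρ.refl' 1
  have r2 := ρ.refl' 2
  have s01 : ρ 1 0 ↔ ρ 0 1 := ⟨ρ.symm', ρ.symm'⟩
  have s12 : ρ 2 1 ↔ ρ 1 2 := ⟨ρ.symm', ρ.symm'⟩
  have s02 : ρ 2 0 ↔ ρ 0 2 := ⟨ρ.symm', ρ.symm'⟩
  by_cases h01 : ρ 0 1 <;> by_cases h12 : ρ 1 2 <;> by_cases h02 : ρ 0 2
  · right; left
    intro l l'
    fin_cases l <;> fin_cases l' <;> simp [*]
  · exact absurd (ρ.trans' h01 h12) h02
  · exact absurd (ρ.trans' (ρ.symm' h01) h02) h12
  · right; right
    refine ⟨2, ?_⟩
    intro l l'
    fin_cases l <;> fin_cases l' <;> simp [*]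
  · exact absurd (ρ.trans' h02 (ρ.symm' h12)) h01
  · right; right
    refine ⟨0, ?_⟩
    intro l l'
    fin_cases l <;> fin_cases l' <;> simp [*]
  · right; right
    refine ⟨1, ?_⟩
    intro l l'
    fin_cases l <;> fin_cases l' <;> simp [*]
  · left
    intro l l'
    fin_cases l <;> fin_cases l' <;> simp [*]

variable (hG : ∀ γ ∈ G, ∀ t, idx (γ t) = idx t)

/-- the map from the parallel sum to the congruences of the big algebra -/
noncomputable def Psi (a : WithBot (WithTop (Σ i, SS idx G i))) : ConA idx G :=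
  WithBot.recBotCoe (C := fun _ => ConA idx G) ⟨⊥, isCong_bot idx G⟩
    (fun b => WithTop.recTopCoe (C := fun _ => ConA idx G) ⟨⊤, isCong_top idx G⟩
      (fun s => ⟨Th idx s.1 s.2.1, Th_isCong idx G hG s.1 s.2.1 s.2.2.1⟩) b) a

lemma Psi_bot : (Psi idx G hG ⊥).1 = ⊥ := rfl

lemma Psi_top : (Psi idx G hG ((⊤ : WithTop (Σ i, SS idx G i)) : WithBot _)).1 = ⊤ := rfl

lemma Psi_coe (s : Σ i, SS idx G i) :
    (Psi idx G hG ((s : WithTop (Σ i, SS idx G i)) : WithBot _)).1 = Th idx s.1 s.2.1 := rfl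

lemma Psi_le_iff (a b : WithBot (WithTop (Σ i, SS idx G i))) :
    Psi idx G hG a ≤ Psi idx G hG b ↔ a ≤ b := by
  have hle : ∀ a b, Psi idx G hG a ≤ Psi idx G hG b ↔ (Psi idx G hG a).1 ≤ (Psi idx G hG b).1 :=
    fun _ _ => Iff.rfl
  rw [hle]
  induction a using WithBot.recBotCoe with
  | bot => rw [Psi_bot]; exact ⟨fun _ => bot_le, fun _ => bot_le⟩
  | coe a =>
    induction a using WithTop.recTopCoe with
    | top =>
      rw [Psi_top]
      induction b using WithBot.recBotCoe with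
      | bot =>
        rw [Psi_bot]
        exact ⟨fun h => absurd h top_not_le_bot, fun h => absurd h (WithBot.not_coe_le_bot _)⟩
      | coe b =>
        induction b using WithTop.recTopCoe with
        | top => rw [Psi_top]; exact ⟨fun _ => le_rfl, fun _ => le_rfl⟩
        | coe s =>
          rw [Psi_coe]
          refine ⟨fun h => absurd h (top_not_le_Th idx _ _), fun h => ?_⟩
          exact absurd (WithBot.coe_le_coe.mp h) (WithTop.not_top_le_coe _)
    | coe r =>
      rw [Psi_coe]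
      induction b using WithBot.recBotCoe with
      | bot =>
        rw [Psi_bot]
        exact ⟨fun h => absurd h (Th_not_le_bot idx _ _),
          fun h => absurd h (WithBot.not_coe_le_bot _)⟩
      | coe b =>
        induction b using WithTop.recTopCoe with
        | top =>
          rw [Psi_top]
          exact ⟨fun _ => WithBot.coe_le_coe.mpr le_top, fun _ => le_top⟩
        | coe s =>
          rw [Psi_coe, WithBot.coe_le_coe, WithTop.coe_le_coe]
          obtain ⟨i, ψ⟩ := r
          obtain ⟨j, φ⟩ := s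
          constructor
          · intro h
            have hij : i = j := Th_le_index idx h
            subst hij
            rw [Sigma.mk_le_mk_iff]
            exact (Th_le_iff idx i ψ.2.2).mp h
          · intro h
            rw [Sigma.le_def] at h
            obtain ⟨hij, h2⟩ := h
            have hij' : i = j := hij
            subst hij'
            exact (Th_le_iff idx i ψ.2.2).mpr h2

include hG in
lemma psiOf_mem (Θ : Setoid (Pt T)) (hΘ : IsCongA idx G Θ) (i : Fin 3) :
    (∀ γ ∈ G, ∀ t t', psiOf idx Θ i t t' → psiOf idx Θ i (γ t) (γ t')) ∧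
      psiOf idx Θ i ≤ supp idx i := by
  refine ⟨?_, fun {t t'} h => h.1⟩
  intro γ hγ t t' h
  refine ⟨?_, hΘ.G γ hγ _ _ h.2⟩
  rcases h.1 with rfl | ⟨a, b⟩
  · exact Or.inl rfl
  · exact Or.inr ⟨by rw [hG γ hγ, a], by rw [hG γ hγ, b]⟩

lemma Psi_surj : Function.Surjective (Psi idx G hG) := by
  rintro ⟨Θ, hΘ⟩
  rcases fin3_setoid (Setoid.comap (fun l => (Sum.inl l : Pt T)) Θ) with h | h | ⟨i, h⟩
  · refine ⟨⊥, Subtype.ext ?_⟩
    exact (case_bot idx G Θ hΘ h).symm
  · refine ⟨((⊤ : WithTop (Σ i, SS idx G i)) : WithBot _), Subtype.ext ?_⟩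
    exact (case_top idx G Θ hΘ h).symm
  · refine ⟨(((⟨i, ⟨psiOf idx Θ i, psiOf_mem idx G hG Θ hΘ i⟩⟩ : Σ i, SS idx G i) :
      WithTop (Σ i, SS idx G i)) : WithBot _), Subtype.ext ?_⟩
    exact (case_theta idx G Θ hΘ i h).symm

/-- the congruence lattice of the big algebra is the parallel sum -/
noncomputable def coreIso : WithBot (WithTop (Σ i, SS idx G i)) ≃o ConA idx G :=
  OrderIso.ofSurjective (OrderEmbedding.ofMapLEIff (Psi idx G hG) (Psi_le_iff idx G hG))
    (Psi_surj idx G hG)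

end Vale.Agent.P183
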