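import Vale.Agent.P183.Classify

namespace Vale.Agent.P183

set_option linter.unusedSectionVars false

variable {T : Type} (idx : T → Fin 3)

def supp (i : Fin 3) : Setoid T where
  r t t' := t = t' ∨ (idx t = i ∧ idx t' = i)
  iseqv := ⟨fun _ => Or.inl rfl,
    fun h => h.elim (fun e => Or.inl e.symm) (fun e => Or.inr ⟨e.2, e.1⟩),
    fun h h' => by
      rcases h with rfl | ⟨a, b⟩
      · exact h'
      · rcases h' with rfl | ⟨c, d⟩
        · exact Or.inr ⟨a, b⟩
        · exact Or.inr ⟨a, d⟩⟩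

def psiOf (Θ : Setoid (Pt T)) (i : Fin 3) : Setoid T where
  r t t' := supp idx i t t' ∧ Θ (Sum.inr (t, 0)) (Sum.inr (t', 0))
  iseqv := ⟨fun _ => ⟨(supp idx i).refl' _, Θ.refl' _⟩,
    fun h => ⟨(supp idx i).symm' h.1, Θ.symm' h.2⟩,
    fun h h' => ⟨(supp idx i).trans' h.1 h'.1, Θ.trans' h.2 h'.2⟩⟩

lemma tst_inr (j : Fin 3) (χ : T → Bool) (t : T) (k : Fin 4) :
    tst idx j χ (Sum.inr (t, k)) =
      if idx t = j then (if χ t then j + 2 else if k = 3 then j else j + 1) else idx t + off k :=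
  rfl

lemma tst_inl (j : Fin 3) (χ : T → Bool) (l : Fin 3) : tst idx j χ (Sum.inl l) = l := rfl

lemma lab_inr (t : T) (k : Fin 4) : lab idx (Sum.inr (t, k)) = idx t + off k := rfl

lemma lab_inl (l : Fin 3) : lab idx (Sum.inl l : Pt T) = l := rfl

lemma tst_const (j : Fin 3) (b : Bool) (t : T) (k : Fin 4) :
    tst idx j (fun _ => b) (Sum.inr (t, k)) =
      if idx t = j then (if b = true then j + 2 else if k = 3 then j else j + 1)
        else idx t + off k :=
  rfl

lemma freeOnly {i : Fin 3} {t : T} {y' : Pt T} (h : bstar idx i (Sum.inr (t, 0)) y')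
    (ht : idx t = i) : ∃ t', y' = Sum.inr (t', 0) ∧ idx t' = i := by
  have h1 := h.1
  have h2 := h.2 i (fun _ => true)
  have h3 := h.2 i (fun _ => false)
  rcases y' with l | ⟨t', k'⟩
  · exfalso
    rw [lab_inr, lab_inl, ht] at h1
    rw [tst_const, tst_inl, ht] at h2
    have key : ∀ (i l : Fin 3), (i + off 0 = i ↔ l = i) →
        ((if i = i then (if true = true then i + 2 else if (0 : Fin 4) = 3 then i else i + 1)
          else i + off 0) = i ↔ l = i) → False := by decide
    exact key i l h1 h2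
  · rw [lab_inr, lab_inr, ht] at h1
    rw [tst_const, tst_const, ht] at h2 h3
    have key : ∀ (i a : Fin 3) (k' : Fin 4), (i + off 0 = i ↔ a + off k' = i) →
        ((if i = i then (if true = true then i + 2 else if (0 : Fin 4) = 3 then i else i + 1)
          else i + off 0) = i ↔
          (if a = i then (if true = true then i + 2 else if k' = 3 then i else i + 1)
            else a + off k') = i) →
        ((if i = i then (if false = true then i + 2 else if (0 : Fin 4) = 3 then i else i + 1)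
          else i + off 0) = i ↔
          (if a = i then (if false = true then i + 2 else if k' = 3 then i else i + 1)
            else a + off k') = i) → a = i ∧ k' = 0 := by decide
    obtain ⟨ha, hk⟩ := key i (idx t') k' h1 h2 h3
    exact ⟨t', by rw [hk], ha⟩

/-- a point that is not at the gadget element `t` -/
def NotAt (t : T) : Pt T → Prop
  | Sum.inl _ => True
  | Sum.inr (t', _) => t' ≠ t

lemma tst_ind_notAt (j : Fin 3) (t : T) (y : Pt T) (h : NotAt t y) :
    tst idx j (ind t) y = tst idx j (fun _ => false) y := by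
  rcases y with l | ⟨t', k'⟩
  · rfl
  · exact tst_ind_other idx j t t' h k'

lemma claim1 {i : Fin 3} {t : T} {k : Fin 4} {y : Pt T} (h : bstar idx i (Sum.inr (t, k)) y)
    (hy : NotAt t y) : (idx t = i ∧ k ≠ 3) ∨ (idx t = i + 2 ∧ k = 3) := by
  have h2 := h.2 (idx t) (ind t)
  have h3 := h.2 (idx t) (fun _ => false)
  rw [tst_ind_self, tst_ind_notAt idx _ _ _ hy] at h2
  rw [tst_false_self] at h3
  have h4 := h2.trans h3.symm
  have key : ∀ (i a : Fin 3) (k : Fin 4), (a + 2 = i ↔ (if k = 3 then a else a + 1) = i) →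
      (a = i ∧ k ≠ 3) ∨ (a = i + 2 ∧ k = 3) := by decide
  exact key _ _ _ h4

def clTab : Fin 3 → Fin 4 → Fin 3 := ![![1, 0, 0, 2], ![1, 1, 2, 1], ![1, 2, 1, 0]]

section

variable (G : Set (T → T)) (Θ : Setoid (Pt T)) (hΘ : IsCongA idx G Θ) (i : Fin 3)
  (Hi : ∀ l l' : Fin 3, Θ (Sum.inl l) (Sum.inl l') ↔ (l = i ↔ l' = i))
include hΘ Hi

lemma edges (t : T) (d : Fin 3) (hd : idx t = i + d) :
    (∀ k, clTab d k = 0 → Θ (Sum.inr (t, k)) (Sum.inl (i + 1))) ∧
    (∀ k, clTab d k = 1 → Θ (Sum.inr (t, k)) (Sum.inr (t, 0))) := by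
  have ER : Θ (Sum.inl (i + 1)) (Sum.inl (i + 2)) := by
    rw [Hi]
    have : ∀ i : Fin 3, (i + 1 = i ↔ i + 2 = i) := by decide
    exact this i
  have EB := edgeB idx G Θ hΘ t ER
  have ED := edge idx G Θ hΘ (some (t, true)) ER
  simp only [tri] at ED
  rw [hd] at EB ED
  have s1 : ∀ i d : Fin 3, i + 1 - (i + d) = 1 - d := by decide
  have s2 : ∀ i d : Fin 3, i + 2 - (i + d) = 2 - d := by decide
  rw [s1, s2] at EB ED
  fin_cases d
  · have EB' : Θ (Sum.inr (t, 1)) (Sum.inr (t, 2)) := by simpa [kB] using EB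
    have ED' : Θ (Sum.inr (t, 1)) (Sum.inl (i + 2)) := by simpa [kD] using ED
    constructor
    · intro k hk
      fin_cases k
      · simp [clTab] at hk
      · exact Θ.trans' ED' (Θ.symm' ER)
      · exact Θ.trans' (Θ.symm' EB') (Θ.trans' ED' (Θ.symm' ER))
      · simp [clTab] at hk
    · intro k hk
      fin_cases k
      · exact Θ.refl' _
      · simp [clTab] at hk
      · simp [clTab] at hk
      · simp [clTab] at hk
  · have EB' : Θ (Sum.inr (t, 0)) (Sum.inr (t, 1)) := by simpa [kB] using EB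
    have ED' : Θ (Sum.inr (t, 3)) (Sum.inr (t, 1)) := by simpa [kD] using ED
    constructor
    · intro k hk
      fin_cases k <;> simp [clTab] at hk
    · intro k hk
      fin_cases k
      · exact Θ.refl' _
      · exact Θ.symm' EB'
      · simp [clTab] at hk
      · exact Θ.trans' ED' (Θ.symm' EB')
  · have e1 : (1 : Fin 3) - 2 = 2 := by decide
    have EB' : Θ (Sum.inr (t, 2)) (Sum.inr (t, 0)) := by simpa [kB, e1] using EB
    have ED' : Θ (Sum.inl (i + 1)) (Sum.inr (t, 3)) := by simpa [kD, e1] using ED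
    constructor
    · intro k hk
      fin_cases k
      · simp [clTab] at hk
      · simp [clTab] at hk
      · simp [clTab] at hk
      · exact Θ.symm' ED'
    · intro k hk
      fin_cases k
      · exact Θ.refl' _
      · simp [clTab] at hk
      · exact EB'
      · simp [clTab] at hk

lemma inR_of {t : T} {k : Fin 4}
    (h : (idx t = i ∧ k ≠ 3 ∧ k ≠ 0) ∨ (idx t = i + 2 ∧ k = 3)) :
    Θ (Sum.inr (t, k)) (Sum.inl (i + 1)) := by
  rcases h with ⟨h1, h2, h3⟩ | ⟨h1, h2⟩
  · have hc : ∀ k : Fin 4, k ≠ 3 → k ≠ 0 → clTab 0 k = 0 := by decide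
    exact (edges idx G Θ hΘ i Hi t 0 (by rw [h1, add_zero])).1 k (hc k h2 h3)
  · subst h2
    exact (edges idx G Θ hΘ i Hi t 2 h1).1 3 (by decide)

lemma free_eq_some {y : Pt T} {t : T} (h : free idx i y = some t) :
    y = Sum.inr (t, 0) ∧ idx t = i := by
  rcases y with l | ⟨t', k'⟩
  · simp [free] at h
  · simp only [free] at h
    split_ifs at h with hc
    · obtain ⟨h1, h2⟩ := hc
      have := Option.some.inj h
      subst this
      exact ⟨by rw [h2], h1⟩

lemma free_free {t : T} (ht : idx t = i) : free idx i (Sum.inr (t, 0)) = some t := by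
  simp [free, ht]

lemma le_Th : Θ ≤ Th idx i (psiOf idx Θ i) := by
  intro y y' h
  have hb : bstar idx i y y' :=
    ⟨(Hi _ _).mp (rootE idx G Θ hΘ h), fun j χ => (Hi _ _).mp (rootS idx G Θ hΘ j χ h)⟩
  refine ⟨hb, ?_⟩
  rcases hy : free idx i y with _ | t
  · rcases hy' : free idx i y' with _ | t'
    · rfl
    · exfalso
      obtain ⟨e1, e2⟩ := free_eq_some idx G Θ hΘ i Hi hy'
      subst e1
      obtain ⟨t2, e3, e4⟩ := freeOnly idx ((bstar idx i).symm' hb) e2
      subst e3
      rw [free_free idx G Θ hΘ i Hi e4] at hy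
      exact absurd hy (by simp)
  · obtain ⟨e1, e2⟩ := free_eq_some idx G Θ hΘ i Hi hy
    subst e1
    obtain ⟨t2, e3, e4⟩ := freeOnly idx hb e2
    subst e3
    rw [free_free idx G Θ hΘ i Hi e4]
    simp only [Option.map_some]
    exact congrArg some (Quotient.sound ⟨Or.inr ⟨e2, e4⟩, h⟩)

lemma Th_le : Th idx i (psiOf idx Θ i) ≤ Θ := by
  have hroot : ∀ l : Fin 3, l ≠ i → Θ (Sum.inl l) (Sum.inl (i + 1)) := by
    intro l hl
    rw [Hi]
    have : ∀ i : Fin 3, i + 1 ≠ i := by decide
    exact ⟨fun h => absurd h hl, fun h => absurd h (this i)⟩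
  -- root point against gadget point
  have mixed : ∀ (l : Fin 3) (t : T) (k : Fin 4),
      Th idx i (psiOf idx Θ i) (Sum.inr (t, k)) (Sum.inl l) → Θ (Sum.inr (t, k)) (Sum.inl l) := by
    intro l t k h
    have c1 := claim1 idx h.1 (by trivial)
    have hf : ¬ (idx t = i ∧ k = 0) := by
      intro hc
      have h2 := h.2
      simp [free, hc] at h2
    have hR : (idx t = i ∧ k ≠ 3 ∧ k ≠ 0) ∨ (idx t = i + 2 ∧ k = 3) := by
      rcases c1 with ⟨a, b⟩ | ⟨a, b⟩
      · exact Or.inl ⟨a, b, fun hk => hf ⟨a, hk⟩⟩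
      · exact Or.inr ⟨a, b⟩
    have hl : l ≠ i := by
      have h1 := h.1.1
      rw [lab_inr, lab_inl] at h1
      intro hli
      have h3 := h1.mpr hli
      have key : ∀ (i a : Fin 3) (k : Fin 4),
          ((a = i ∧ k ≠ 3 ∧ k ≠ 0) ∨ (a = i + 2 ∧ k = 3)) → a + off k ≠ i := by decide
      exact key _ _ _ hR h3
    exact Θ.trans' (inR_of idx G Θ hΘ i Hi hR) (Θ.symm' (hroot l hl))
  intro y y' h
  rcases y with l | ⟨t, k⟩ <;> rcases y' with l' | ⟨t', k'⟩
  · exact (Hi _ _).mpr h.1.1
  · exact Θ.symm' (mixed _ _ _ ((Th idx i (psiOf idx Θ i)).symm' h))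
  · exact mixed _ _ _ h
  · by_cases htt : t' = t
    · subst htt
      obtain ⟨d, hd⟩ : ∃ d, idx t' = i + d := ⟨idx t' - i, by abel⟩
      have h1 := h.1.1
      have h3 := h.1.2 (idx t') (fun _ => false)
      rw [tst_false_self, tst_false_self, hd] at h3
      rw [lab_inr, lab_inr, hd] at h1
      have key : ∀ (i d : Fin 3) (k k' : Fin 4), (i + d + off k = i ↔ i + d + off k' = i) →
          ((if k = 3 then i + d else i + d + 1) = i ↔ (if k' = 3 then i + d else i + d + 1) = i) →
          clTab d k = clTab d k' := by decide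
      have hcl := key i d k k' h1 h3
      obtain ⟨E0, E1⟩ := edges idx G Θ hΘ i Hi t' d hd
      have h012 : ∀ x : Fin 3, x = 0 ∨ x = 1 ∨ x = 2 := by decide
      rcases h012 (clTab d k) with h0 | h0 | h0
      · exact Θ.trans' (E0 k h0) (Θ.symm' (E0 k' (hcl ▸ h0)))
      · exact Θ.trans' (E1 k h0) (Θ.symm' (E1 k' (hcl ▸ h0)))
      · have key2 : ∀ (d : Fin 3) (k k' : Fin 4), clTab d k = 2 → clTab d k' = 2 → k = k' := by
          decide
        rw [key2 d k k' h0 (hcl ▸ h0)]
    · have c1 := claim1 idx h.1 (show NotAt t (Sum.inr (t', k')) from htt)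
      have c2 := claim1 idx ((bstar idx i).symm' h.1)
        (show NotAt t' (Sum.inr (t, k)) from fun e => htt e.symm)
      by_cases hf : idx t = i ∧ k = 0
      · have h2 := h.2
        obtain ⟨hf1, hf2⟩ := hf
        subst hf2
        rw [free_free idx G Θ hΘ i Hi hf1] at h2
        rcases hy' : free idx i (Sum.inr (t', k')) with _ | t2
        · rw [hy'] at h2
          simp at h2
        · rw [hy'] at h2
          obtain ⟨e1, e2⟩ := free_eq_some idx G Θ hΘ i Hi hy'
          have h3 : psiOf idx Θ i t t2 := Quotient.exact (Option.some.inj h2)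
          rw [e1]
          exact h3.2
      · have hf' : ¬ (idx t' = i ∧ k' = 0) := by
          intro hc
          have h2 := h.2
          simp [free, hc, hf] at h2
        have hR : (idx t = i ∧ k ≠ 3 ∧ k ≠ 0) ∨ (idx t = i + 2 ∧ k = 3) := by
          rcases c1 with ⟨a, b⟩ | ⟨a, b⟩
          · exact Or.inl ⟨a, b, fun hk => hf ⟨a, hk⟩⟩
          · exact Or.inr ⟨a, b⟩
        have hR' : (idx t' = i ∧ k' ≠ 3 ∧ k' ≠ 0) ∨ (idx t' = i + 2 ∧ k' = 3) := by
          rcases c2 with ⟨a, b⟩ | ⟨a, b⟩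
          · exact Or.inl ⟨a, b, fun hk => hf' ⟨a, hk⟩⟩
          · exact Or.inr ⟨a, b⟩
        exact Θ.trans' (inR_of idx G Θ hΘ i Hi hR) (Θ.symm' (inR_of idx G Θ hΘ i Hi hR'))

lemma case_theta : Θ = Th idx i (psiOf idx Θ i) :=
  le_antisymm (le_Th idx G Θ hΘ i Hi) (Th_le idx G Θ hΘ i Hi)

end

end Vale.Agent.P183
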