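import Vale.Agent.P183.Defs
import Vale.Agent.P183.Iso

namespace Vale.Agent.P183

set_option linter.unusedSectionVars false

universe u

/-- unary maps preserving every congruence of `A` -/
def Pres (A : FinAlg) : Set (A.carrier → A.carrier) :=
  {g | ∀ ψ : Setoid A.carrier, A.IsCong ψ → ∀ a b, ψ a b → ψ (g a) (g b)}

/-- an equivalence relation preserved by all maps in `Pres A` is a congruence -/
lemma isCong_of_pres (A : FinAlg) (ψ : Setoid A.carrier)
    (h : ∀ g ∈ Pres A, ∀ a b, ψ a b → ψ (g a) (g b)) : A.IsCong ψ := by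
  intro o x y hxy
  -- hybrid tuples
  have key : ∀ m : ℕ, m ≤ A.arity o →
      ψ (A.op o x) (A.op o (fun k => if k.1 < m then y k else x k)) := by
    intro m
    induction m with
    | zero =>
      intro _
      have : (fun k : Fin (A.arity o) => if k.1 < 0 then y k else x k) = x := by
        funext k; simp
      rw [this]
    | succ m ih =>
      intro hm
      refine ψ.trans' (ih (by omega)) ?_
      let km : Fin (A.arity o) := ⟨m, by omega⟩
      let base : Fin (A.arity o) → A.carrier := fun k => if k.1 < m then y k else x k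
      let g : A.carrier → A.carrier := fun c => A.op o (Function.update base km c)
      have hg : g ∈ Pres A := by
        intro φ hφ a b hab
        apply hφ
        intro k
        by_cases hk : k = km
        · subst hk; simpa using hab
        · simp only [Function.update_of_ne hk]; exact φ.refl' _
      have e1 : g (x km) = A.op o (fun k => if k.1 < m then y k else x k) := by
        simp only [g]
        congr 1
        funext k
        by_cases hk : k = km
        · subst hk; simp [km]
        · simp only [Function.update_of_ne hk, base]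
      have e2 : g (y km) = A.op o (fun k => if k.1 < m + 1 then y k else x k) := by
        simp only [g]
        congr 1
        funext k
        by_cases hk : k = km
        · subst hk; simp [km]
        · simp only [Function.update_of_ne hk, base]
          have hne : k.1 ≠ m := fun e => hk (Fin.ext e)
          by_cases hlt : k.1 < m
          · simp [hlt, Nat.lt_succ_of_lt hlt]
          · have : ¬ k.1 < m + 1 := by omega
            simp [hlt, this]
      rw [← e1, ← e2]
      exact h g hg _ _ (hxy km)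
  have := key (A.arity o) le_rfl
  have e : (fun k : Fin (A.arity o) => if k.1 < A.arity o then y k else x k) = y := by
    funext k; simp [k.2]
  rwa [e] at this

section family

variable (A : Fin 3 → FinAlg)

abbrev TT : Type := Σ j, (A j).carrier

def idxT : TT A → Fin 3 := fun t => t.1

/-- act by `g` on the `j`-th summand and trivially elsewhere -/
def lift (j : Fin 3) (g : (A j).carrier → (A j).carrier) : TT A → TT A :=
  fun t => if h : t.1 = j then ⟨j, g (h ▸ t.2)⟩ else t

lemma lift_same (j : Fin 3) (g : (A j).carrier → (A j).carrier) (a : (A j).carrier) :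
    lift A j g ⟨j, a⟩ = ⟨j, g a⟩ := by
  simp [lift]

lemma lift_ne (j : Fin 3) (g : (A j).carrier → (A j).carrier) (t : TT A) (h : t.1 ≠ j) :
    lift A j g t = t := by
  simp [lift, h]

def GG : Set (TT A → TT A) := {γ | ∃ j, ∃ g ∈ Pres (A j), γ = lift A j g}

lemma GG_idx : ∀ γ ∈ GG A, ∀ t, idxT A (γ t) = idxT A t := by
  rintro γ ⟨j, g, _, rfl⟩ t
  by_cases h : t.1 = j
  · simp [lift, h, idxT]
  · rw [lift_ne A j g t h]

/-- extend an equivalence relation on the `i`-th summand by equality -/
def hat (i : Fin 3) (ψ : Setoid (A i).carrier) : Setoid (TT A) where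
  r t t' := t = t' ∨ ∃ a b, t = ⟨i, a⟩ ∧ t' = ⟨i, b⟩ ∧ ψ a b
  iseqv := ⟨fun _ => Or.inl rfl,
    fun h => by
      rcases h with rfl | ⟨a, b, h1, h2, h3⟩
      · exact Or.inl rfl
      · exact Or.inr ⟨b, a, h2, h1, ψ.symm' h3⟩,
    fun h h' => by
      rcases h with rfl | ⟨a, b, h1, h2, h3⟩
      · exact h'
      · rcases h' with rfl | ⟨c, d, h4, h5, h6⟩
        · exact Or.inr ⟨a, b, h1, h2, h3⟩
        · have hbc : b = c := by
            have := h2.symm.trans h4
            simpa using this
          subst hbc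
          exact Or.inr ⟨a, d, h1, h5, ψ.trans' h3 h6⟩⟩

lemma hat_mk (i : Fin 3) (ψ : Setoid (A i).carrier) (a b : (A i).carrier) :
    hat A i ψ ⟨i, a⟩ ⟨i, b⟩ ↔ ψ a b := by
  constructor
  · rintro (h | ⟨c, d, h1, h2, h3⟩)
    · have : a = b := by simpa using h
      rw [this]
    · have e1 : a = c := by simpa using h1
      have e2 : b = d := by simpa using h2
      rw [e1, e2]; exact h3
  · intro h
    exact Or.inr ⟨a, b, rfl, rfl, h⟩

lemma hat_mem (i : Fin 3) (ψ : (A i).Con) :
    (∀ γ ∈ GG A, ∀ t t', hat A i ψ.1 t t' → hat A i ψ.1 (γ t) (γ t')) ∧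
      hat A i ψ.1 ≤ supp (idxT A) i := by
  constructor
  · rintro γ ⟨j, g, hg, rfl⟩ t t' h
    rcases h with rfl | ⟨a, b, rfl, rfl, h3⟩
    · exact Or.inl rfl
    · by_cases hij : i = j
      · subst hij
        rw [lift_same, lift_same, hat_mk]
        exact hg ψ.1 ψ.2 a b h3
      · rw [lift_ne A j g _ hij, lift_ne A j g _ hij, hat_mk]
        exact h3
  · intro t t' h
    rcases h with rfl | ⟨a, b, rfl, rfl, _⟩
    · exact Or.inl rfl
    · exact Or.inr ⟨rfl, rfl⟩

def hatMap (i : Fin 3) (ψ : (A i).Con) : SS (idxT A) (GG A) i := ⟨hat A i ψ.1, hat_mem A i ψ⟩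

lemma hatMap_le_iff (i : Fin 3) (ψ φ : (A i).Con) : hatMap A i ψ ≤ hatMap A i φ ↔ ψ ≤ φ := by
  constructor
  · intro h a b hab
    exact (hat_mk A i φ.1 a b).mp (h ((hat_mk A i ψ.1 a b).mpr hab))
  · intro h t t' htt
    rcases htt with rfl | ⟨a, b, rfl, rfl, h3⟩
    · exact Or.inl rfl
    · exact Or.inr ⟨a, b, rfl, rfl, h h3⟩

lemma hatMap_surj (i : Fin 3) : Function.Surjective (hatMap A i) := by
  rintro ⟨ψ, h1, h2⟩
  have hc : (A i).IsCong (Setoid.comap (fun a => (⟨i, a⟩ : TT A)) ψ) := by
    apply isCong_of_pres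
    intro g hg a b hab
    have := h1 (lift A i g) ⟨i, g, hg, rfl⟩ _ _ hab
    rw [lift_same, lift_same] at this
    exact this
  refine ⟨⟨_, hc⟩, Subtype.ext ?_⟩
  apply le_antisymm
  · intro t t' h
    rcases h with rfl | ⟨a, b, rfl, rfl, h3⟩
    · exact ψ.refl' _
    · exact h3
  · intro t t' h
    rcases h2 h with rfl | ⟨e1, e2⟩
    · exact Or.inl rfl
    · obtain ⟨j, a⟩ := t
      obtain ⟨j', b⟩ := t'
      have e1' : j = i := e1
      have e2' : j' = i := e2
      subst e1'
      subst e2'
      exact Or.inr ⟨a, b, rfl, rfl, h⟩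

noncomputable def hatIso (i : Fin 3) : (A i).Con ≃o SS (idxT A) (GG A) i :=
  OrderIso.ofSurjective (OrderEmbedding.ofMapLEIff (hatMap A i) (hatMap_le_iff A i))
    (hatMap_surj A i)

/-- the unary operations of the big algebra -/
def bigOp : (Option (TT A × Bool) ⊕ (Fin 3 × (TT A → Bool)) ⊕ {γ // γ ∈ GG A}) →
    Pt (TT A) → Pt (TT A)
  | Sum.inl w => opE (idxT A) w
  | Sum.inr (Sum.inl (j, χ)) => opS (idxT A) j χ
  | Sum.inr (Sum.inr γ) => opG γ.1

/-- the big algebra -/
def bigAlg : FinAlg where
  carrier := Pt (TT A)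
  nonempty := ⟨Sum.inl 0⟩
  finite := by
    have : ∀ j, Finite (A j).carrier := fun j => (A j).finite
    infer_instance
  ops := Option (TT A × Bool) ⊕ (Fin 3 × (TT A → Bool)) ⊕ {γ // γ ∈ GG A}
  finite_ops := by
    have : ∀ j, Finite (A j).carrier := fun j => (A j).finite
    infer_instance
  arity := fun _ => 1
  op := fun o x => bigOp A o (x 0)

lemma bigAlg_isCong_iff (Θ : Setoid (Pt (TT A))) :
    (bigAlg A).IsCong Θ ↔ IsCongA (idxT A) (GG A) Θ := by
  constructor
  · intro h
    refine ⟨?_, ?_, ?_⟩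
    · intro w y y' hy
      exact h (Sum.inl w) (fun _ => y) (fun _ => y') (fun _ => hy)
    · intro j χ y y' hy
      exact h (Sum.inr (Sum.inl (j, χ))) (fun _ => y) (fun _ => y') (fun _ => hy)
    · intro γ hγ y y' hy
      exact h (Sum.inr (Sum.inr ⟨γ, hγ⟩)) (fun _ => y) (fun _ => y') (fun _ => hy)
  · intro h o x y hxy
    rcases o with w | ⟨j, χ⟩ | γ
    · exact h.E w _ _ (hxy (0 : Fin 1))
    · exact h.S j χ _ _ (hxy (0 : Fin 1))
    · exact h.G γ.1 γ.2 _ _ (hxy (0 : Fin 1))

def bigIso : (bigAlg A).Con ≃o ConA (idxT A) (GG A) where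
  toFun Θ := ⟨Θ.1, (bigAlg_isCong_iff A Θ.1).mp Θ.2⟩
  invFun Θ := ⟨Θ.1, (bigAlg_isCong_iff A Θ.1).mpr Θ.2⟩
  left_inv _ := rfl
  right_inv _ := rfl
  map_rel_iff' := Iff.rfl

end family

/-- order isomorphism of disjoint sums from a family of order isomorphisms -/
def sigmaIso {ι : Type} {α : ι → Type} {β : ι → Type u} [∀ i, PartialOrder (α i)]
    [∀ i, PartialOrder (β i)] (f : ∀ i, α i ≃o β i) : (Σ i, α i) ≃o (Σ i, β i) where
  toEquiv := Equiv.sigmaCongrRight (fun i => (f i).toEquiv)
  map_rel_iff' := by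
    rintro ⟨i, a⟩ ⟨j, b⟩
    by_cases hij : i = j
    · subst hij
      simp [Equiv.sigmaCongrRight]
    · constructor
      · intro h
        rw [Sigma.le_def] at h
        exact absurd h.1 hij
      · intro h
        rw [Sigma.le_def] at h
        exact absurd h.1 hij

theorem parallel_sum_representable (L : Fin 3 → Type u) [∀ i, PartialOrder (L i)]
    (h : ∀ i, Representable (L i)) : Representable (WithBot (WithTop (Σ i, L i))) := by
  choose A hA using h
  have e : ∀ i, (A i).Con ≃o L i := fun i => (hA i).some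
  refine ⟨bigAlg A, ⟨?_⟩⟩
  have f : ∀ i, SS (idxT A) (GG A) i ≃o L i := fun i => (hatIso A i).symm.trans (e i)
  exact (bigIso A).trans ((coreIso (idxT A) (GG A) (GG_idx A)).symm.trans
    (sigmaIso f).withTopCongr.withBotCongr)

end Vale.Agent.P183
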